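import Mathlib

/-! # P246: stable range of algebras finite over a noetherian central ring of finite dimension -/

set_option autoImplicit false

namespace Vale.Agent.P246.H982

open Submodule

section module

variable {A M : Type} [CommRing A] [AddCommGroup M] [Module A M]

/-- `M / J` is generated by `k` elements at `p`. -/
def GG (J : Submodule A M) (p : Ideal A) (k : ℕ) : Prop :=
  ∃ f : A, f ∉ p ∧ ∃ s : Finset M, s.card ≤ k ∧ ∀ x : M, f • x ∈ J ⊔ span A (s : Set M)

/-- `a` vanishes in the fibre of `M / J` at `p`. -/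
def ZZ (J : Submodule A M) (a : M) (p : Ideal A) : Prop :=
  ∃ f : A, f ∉ p ∧ f • a ∈ J ⊔ p • (⊤ : Submodule A M)

lemma GG.mono_k {J : Submodule A M} {p : Ideal A} {k l : ℕ} (h : GG J p k) (hkl : k ≤ l) :
    GG J p l := by
  obtain ⟨f, hf, s, hs, h⟩ := h
  exact ⟨f, hf, s, hs.trans hkl, h⟩

lemma GG.mono_J {J J' : Submodule A M} {p : Ideal A} {k : ℕ} (h : GG J p k) (hJ : J ≤ J') :
    GG J' p k := by
  obtain ⟨f, hf, s, hs, h⟩ := h
  exact ⟨f, hf, s, hs, fun x => sup_le_sup_right hJ _ (h x)⟩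

lemma GG.mono_p {J : Submodule A M} {p q : Ideal A} {k : ℕ} (h : GG J p k) (hq : q ≤ p) :
    GG J q k := by
  obtain ⟨f, hf, s, hs, h⟩ := h
  exact ⟨f, fun h' => hf (hq h'), s, hs, h⟩

lemma ZZ.mono_J {J J' : Submodule A M} {p : Ideal A} {a : M} (h : ZZ J a p) (hJ : J ≤ J') :
    ZZ J' a p := by
  obtain ⟨f, hf, h⟩ := h
  exact ⟨f, hf, sup_le_sup_right hJ _ h⟩

lemma ZZ.of_GG_zero {J : Submodule A M} {p : Ideal A} {a : M} (h : GG J p 0) : ZZ J a p := by
  obtain ⟨f, hf, s, hs, h⟩ := h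
  have hs0 : s = ∅ := Finset.card_eq_zero.1 (Nat.le_zero.1 hs)
  subst hs0
  refine ⟨f, hf, ?_⟩
  have := h a
  simp only [Finset.coe_empty, span_empty, sup_bot_eq] at this
  exact mem_sup_left this

/-- (L1) -/
lemma drop {J : Submodule A M} {p : Ideal A} {y : M} {k : ℕ} [hp : p.IsPrime] (hz : ¬ ZZ J y p)
    (h : GG J p (k + 1)) : GG (J ⊔ span A {y}) p k := by
  classical
  obtain ⟨f, hf, s, hs, h⟩ := h
  obtain ⟨j, hj, z, hzs, hjz⟩ := mem_sup.1 (h y)
  obtain ⟨c, -, hc⟩ := mem_span_finset.1 hzs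
  obtain ⟨i, his, hci⟩ : ∃ i ∈ s, c i ∉ p := by
    by_contra hcon
    have hcon : ∀ i ∈ s, c i ∈ p := fun i hi => by
      by_contra h'
      exact hcon ⟨i, hi, h'⟩
    apply hz
    refine ⟨f, hf, ?_⟩
    rw [← hjz]
    refine add_mem (mem_sup_left hj) (mem_sup_right ?_)
    rw [← hc]
    exact sum_mem (fun l hl => smul_mem_smul (hcon l hl) mem_top)
  refine ⟨c i * f, fun h' => (hp.mem_or_mem h').elim hci hf, s.erase i, ?_, ?_⟩
  · rw [Finset.card_erase_of_mem his]
    omega
  · intro x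
    set T := (J ⊔ span A {y}) ⊔ span A ((s.erase i : Finset M) : Set M) with hT
    have hJT : J ≤ T := le_sup_left.trans le_sup_left
    have hyT : y ∈ T := mem_sup_left (mem_sup_right (mem_span_singleton_self y))
    have hlT : ∀ l ∈ s, l ≠ i → l ∈ T := fun l hl hli =>
      mem_sup_right (subset_span (Finset.mem_coe.2 (Finset.mem_erase.2 ⟨hli, hl⟩)))
    have hciT : c i • i ∈ T := by
      have h1 : c i • i = f • y - j - ∑ l ∈ s.erase i, c l • l := by
        rw [← hjz, ← hc, ← Finset.add_sum_erase s (fun l => c l • l) his]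
        abel
      rw [h1]
      refine sub_mem (sub_mem (T.smul_mem _ hyT) (hJT hj)) (sum_mem ?_)
      intro l hl
      exact T.smul_mem _ (hlT l (Finset.mem_of_mem_erase hl) (Finset.ne_of_mem_erase hl))
    have hle : J ⊔ span A (s : Set M) ≤ T.comap (LinearMap.lsmul A M (c i)) := by
      refine sup_le ?_ (span_le.2 ?_)
      · intro z hz
        exact T.smul_mem _ (hJT hz)
      · intro l hl
        by_cases hli : l = i
        · subst hli
          exact hciT
        · exact T.smul_mem _ (hlT l hl hli)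
    have := hle (h x)
    rw [mul_smul]
    exact this

/-- (L2) -/
lemma lift {J : Submodule A M} {q : Ideal A} {a : M} {k : ℕ} [hq : q.IsPrime] (hz : ZZ J a q)
    (h : GG (J ⊔ span A {a}) q k) : GG J q k := by
  classical
  obtain ⟨f, hf, hfa⟩ := hz
  obtain ⟨g, hg, s, hs, h⟩ := h
  set N := J ⊔ span A (s : Set M) with hN
  have hgx : ∀ x : M, ∃ e : A, g • x - e • a ∈ N := by
    intro x
    have h1 : g • x ∈ N ⊔ span A {a} := by
      have h2 := h x
      have h3 : (J ⊔ span A {a}) ⊔ span A (s : Set M) = N ⊔ span A {a} := by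
        rw [hN, sup_right_comm]
      rwa [h3] at h2
    obtain ⟨n, hn, z, hz, hnz⟩ := mem_sup.1 h1
    obtain ⟨e, rfl⟩ := mem_span_singleton.1 hz
    refine ⟨e, ?_⟩
    rw [← hnz, add_sub_cancel_right]
    exact hn
  have hw : ∀ w ∈ q • (⊤ : Submodule A M), ∃ c ∈ q, g • w - c • a ∈ N := by
    intro w hw
    refine Submodule.smul_induction_on hw ?_ ?_
    · intro r hr x _
      obtain ⟨e, he⟩ := hgx x
      refine ⟨r * e, q.mul_mem_right _ hr, ?_⟩
      have h1 : g • r • x - (r * e) • a = r • (g • x - e • a) := by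
        rw [smul_sub, smul_comm g r x, mul_smul]
      rw [h1]
      exact N.smul_mem _ he
    · rintro x y ⟨c, hc, hcx⟩ ⟨c', hc', hcy⟩
      refine ⟨c + c', q.add_mem hc hc', ?_⟩
      have h1 : g • (x + y) - (c + c') • a = (g • x - c • a) + (g • y - c' • a) := by
        rw [smul_add, add_smul]; abel
      rw [h1]
      exact N.add_mem hcx hcy
  obtain ⟨j, hj, w, hww, hjw⟩ := mem_sup.1 hfa
  obtain ⟨c, hc, hcw⟩ := hw w hww
  have hga : (g * f - c) • a ∈ N := by
    have h1 : (g * f - c) • a = g • j + (g • w - c • a) := by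
      rw [sub_smul, mul_smul, ← hjw, smul_add]; abel
    rw [h1]
    exact N.add_mem (N.smul_mem _ (mem_sup_left hj)) hcw
  have hgf : g * f - c ∉ q := by
    intro h'
    have : g * f ∈ q := by
      have := q.add_mem h' hc
      rwa [sub_add_cancel] at this
    exact (hq.mem_or_mem this).elim hg hf
  refine ⟨(g * f - c) * g, fun h' => (hq.mem_or_mem h').elim hgf hg, s, hs, ?_⟩
  intro x
  obtain ⟨e, he⟩ := hgx x
  have h1 : ((g * f - c) * g) • x = (g * f - c) • (g • x - e • a) + e • ((g * f - c) • a) := by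
    rw [mul_smul, smul_sub, smul_comm e, sub_add_cancel]
  rw [h1]
  exact N.add_mem (N.smul_mem _ he) (N.smul_mem _ hga)

/-- Avoidance. -/
lemma avoid (J : Submodule A M) (a y : M) : ∀ (n : ℕ) (S : Finset (Ideal A)), S.card = n →
    (∀ p ∈ S, p.IsPrime ∧ ¬ ZZ J a p) → ∃ t : A, ∀ p ∈ S, ¬ ZZ J (y + t • a) p := by
  classical
  intro n
  induction n with
  | zero =>
    intro S hS _
    refine ⟨0, ?_⟩
    rw [Finset.card_eq_zero.1 hS]
    intro p hp
    exact absurd hp (Finset.notMem_empty p)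
  | succ n ih =>
    intro S hS hSp
    have hne : S.Nonempty := Finset.card_pos.1 (by omega)
    obtain ⟨p, hp, hmin⟩ : ∃ p ∈ S, ∀ q ∈ S, ¬ q < p := by
      obtain ⟨p, hp⟩ := S.exists_minimal hne
      exact ⟨p, hp.prop, fun q hq => hp.not_lt hq⟩
    obtain ⟨hpp, hpz⟩ := hSp p hp
    obtain ⟨t, ht⟩ := ih (S.erase p) (by rw [Finset.card_erase_of_mem hp]; omega)
      (fun q hq => hSp q (Finset.mem_of_mem_erase hq))
    by_cases hz : ZZ J (y + t • a) p
    · have hnle : ¬ (S.erase p).inf id ≤ p := by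
        rw [hpp.inf_le']
        rintro ⟨q, hq, hqp⟩
        exact hmin q (Finset.mem_of_mem_erase hq)
          (lt_of_le_of_ne hqp (Finset.ne_of_mem_erase hq))
      obtain ⟨u, hu, hup⟩ := SetLike.not_le_iff_exists.1 hnle
      refine ⟨t + u, ?_⟩
      intro q hq hzq
      by_cases hqp : q = p
      · subst hqp
        obtain ⟨f, hf, h1⟩ := hz
        obtain ⟨g, hg, h2⟩ := hzq
        apply hpz
        refine ⟨f * g * u, ?_, ?_⟩
        · intro h'
          rcases hpp.mem_or_mem h' with h' | h'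
          · exact (hpp.mem_or_mem h').elim hf hg
          · exact hup h'
        · have h3 : (f * g * u) • a = f • (g • (y + (t + u) • a)) - g • (f • (y + t • a)) := by
            rw [smul_comm g f, ← smul_sub, ← smul_sub]
            have : y + (t + u) • a - (y + t • a) = u • a := by
              rw [add_smul]; abel
            rw [this, mul_smul, mul_smul]
          rw [h3]
          exact sub_mem (Submodule.smul_mem _ _ h2) (Submodule.smul_mem _ _ h1)
      · have hqS : q ∈ S.erase p := Finset.mem_erase.2 ⟨hqp, hq⟩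
        apply ht q hqS
        obtain ⟨g, hg, h2⟩ := hzq
        refine ⟨g, hg, ?_⟩
        have huq : u ∈ q := (Finset.inf_le hqS : (S.erase p).inf id ≤ id q) hu
        have h3 : g • (y + t • a) = g • (y + (t + u) • a) - g • (u • a) := by
          rw [← smul_sub]
          congr 1
          rw [add_smul]; abel
        rw [h3]
        exact sub_mem h2 (Submodule.smul_mem _ _ (mem_sup_right (smul_mem_smul huq mem_top)))
    · refine ⟨t, ?_⟩
      intro q hq
      by_cases hqp : q = p
      · rw [hqp]; exact hz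
      · exact ht q (Finset.mem_erase.2 ⟨hqp, hq⟩)

/-- The invariant. -/
def Inv (ht : Ideal A → ℕ) (m : ℕ) (J : Submodule A M) (a : M) (i : ℕ) : Prop :=
  ∀ p : Ideal A, p.IsPrime → ZZ J a p ∨ ∃ k, k + i ≤ m * (1 + ht p) ∧ GG J p k

/-- Critical primes. -/
def Crit (ht : Ideal A → ℕ) (m : ℕ) (J : Submodule A M) (a : M) (i : ℕ) : Set (Ideal A) :=
  {p | p.IsPrime ∧ ¬ ZZ J a p ∧ ∀ k, GG J p k → m * (1 + ht p) ≤ k + i}

lemma crit_finite [IsNoetherianRing A] (ht : Ideal A → ℕ) (m : ℕ) (hm : 1 ≤ m)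
    (hlt : ∀ p q : Ideal A, p.IsPrime → q.IsPrime → q < p → ht q < ht p)
    (J : Submodule A M) (a : M) (i : ℕ) (hgen : ∀ p : Ideal A, p.IsPrime → GG J p m)
    (hinv : Inv ht m J a i) : (Crit ht m J a i).Finite := by
  classical
  set I : ℕ → Ideal A := fun k => Ideal.span {f : A | ∃ s : Finset M, s.card ≤ k ∧
    ∀ x : M, f • x ∈ J ⊔ span A (s : Set M)} with hI
  refine Set.Finite.subset (Set.Finite.biUnion (Finset.range (m + 1)).finite_toSet
    (fun k _ => Ideal.finite_minimalPrimes_of_isNoetherianRing A (I k))) ?_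
  rintro p ⟨hp, hz, hcrit⟩
  have hex : ∃ k, GG J p k := ⟨m, hgen p hp⟩
  have hfind := Nat.find_spec hex
  have hfm : Nat.find hex ≤ m := Nat.find_min' hex (hgen p hp)
  obtain ⟨k, hk⟩ : ∃ k, Nat.find hex = k + 1 := by
    rcases h : Nat.find hex with _ | k
    · rw [h] at hfind
      exact absurd (ZZ.of_GG_zero hfind) hz
    · exact ⟨k, rfl⟩
  rw [hk] at hfind hfm
  have hnk : ¬ GG J p k := Nat.find_min hex (by omega)
  have heq : k + 1 + i = m * (1 + ht p) := by
    rcases hinv p hp with h | ⟨k', hk', hG⟩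
    · exact absurd h hz
    · have h1 : k + 1 ≤ k' := hk ▸ Nat.find_min' hex hG
      have h2 := hcrit _ hfind
      omega
  simp only [Set.mem_iUnion]
  refine ⟨k, Finset.mem_coe.2 (Finset.mem_range.2 (by omega)), ⟨hp, ?_⟩, ?_⟩
  · rw [hI]
    refine Ideal.span_le.2 ?_
    rintro f ⟨s, hs, h⟩
    by_contra hf
    exact hnk ⟨f, hf, s, hs, h⟩
  · rintro q ⟨hq, hIq⟩ hqp
    by_contra hpq
    have hqlt : q < p := lt_of_le_not_ge hqp hpq
    have hnq : ¬ GG J q k := by
      rintro ⟨f, hf, s, hs, h⟩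
      exact hf (hIq (Ideal.subset_span ⟨s, hs, h⟩))
    have hzq : ZZ J a q := by
      rcases hinv q hq with h | ⟨k', hk', hG⟩
      · exact h
      · exfalso
        have h1 : k + 1 ≤ k' := by
          by_contra hcon
          exact hnq (hG.mono_k (by omega))
        have h2 : ht q + 1 ≤ ht p := hlt p q hp hq hqlt
        have h3 : m * (1 + ht q) + m ≤ m * (1 + ht p) := by
          calc m * (1 + ht q) + m = m * (1 + (ht q + 1)) := by ring
            _ ≤ m * (1 + ht p) := Nat.mul_le_mul_left _ (by omega)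
        omega
    have h1 : GG (J ⊔ span A {a}) p k := drop hz hfind
    exact hnq (lift hzq (h1.mono_p hqp))

lemma step [IsNoetherianRing A] (ht : Ideal A → ℕ) (m : ℕ) (hm : 1 ≤ m)
    (hlt : ∀ p q : Ideal A, p.IsPrime → q.IsPrime → q < p → ht q < ht p)
    (J : Submodule A M) (a y : M) (i : ℕ) (hgen : ∀ p : Ideal A, p.IsPrime → GG J p m)
    (hinv : Inv ht m J a i) : ∃ t : A, ∀ J' : Submodule A M, J ≤ J' → y + t • a ∈ J' →
      Inv ht m J' a (i + 1) := by
  classical
  have hfin := crit_finite ht m hm hlt J a i hgen hinv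
  obtain ⟨t, ht'⟩ := avoid J a y _ hfin.toFinset rfl (by
    intro p hp
    have := hfin.mem_toFinset.1 hp
    exact ⟨this.1, this.2.1⟩)
  refine ⟨t, ?_⟩
  intro J' hJ hy p hp
  by_cases hz : ZZ J a p
  · exact Or.inl (hz.mono_J hJ)
  · right
    by_cases hc : p ∈ Crit ht m J a i
    · have hzp := ht' p (hfin.mem_toFinset.2 hc)
      rcases hinv p hp with h | ⟨k, hk, hG⟩
      · exact absurd h hz
      · rcases k with _ | k
        · exact absurd (ZZ.of_GG_zero hG) hz
        · refine ⟨k, by omega, (drop hzp hG).mono_J ?_⟩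
          refine sup_le hJ ?_
          rw [span_singleton_le_iff_mem]
          exact hy
    · have : ∃ k, GG J p k ∧ k + i < m * (1 + ht p) := by
        by_contra hcon
        refine hc ⟨hp, hz, fun k hk => ?_⟩
        by_contra h'
        exact hcon ⟨k, hk, by omega⟩
      obtain ⟨k, hG, hk⟩ := this
      exact ⟨k, by omega, hG.mono_J hJ⟩

lemma lower {J : Submodule A M} {p : Ideal A} [hp : p.IsPrime] (hz : ∀ x : M, ZZ J x p) :
    ∀ k : ℕ, GG J p k → GG J p 0 := by
  classical
  intro k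
  induction k with
  | zero => exact id
  | succ k ih =>
    intro h
    obtain ⟨f, hf, s, hs, h⟩ := h
    apply ih
    rcases s.eq_empty_or_nonempty with rfl | ⟨l, hl⟩
    · exact ⟨f, hf, ∅, by simp, h⟩
    · refine lift (hz l) ⟨f, hf, s.erase l, ?_, ?_⟩
      · rw [Finset.card_erase_of_mem hl]
        omega
      · intro x
        refine (sup_le (le_sup_left.trans le_sup_left) (span_le.2 ?_) :
          J ⊔ span A (s : Set M) ≤ (J ⊔ span A {l}) ⊔ span A ((s.erase l : Finset M) : Set M)) (h x)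
        intro z hz'
        by_cases hzl : z = l
        · subst hzl
          exact mem_sup_left (mem_sup_right (mem_span_singleton_self z))
        · exact mem_sup_right (subset_span (Finset.mem_coe.2 (Finset.mem_erase.2
            ⟨hzl, Finset.mem_coe.1 hz'⟩)))

end module

section ring

variable {A R : Type} [CommRing A] [Ring R] [Algebra A R]

/-- The right ideal generated by a row. -/
noncomputable def Jof {n : ℕ} (y : Fin n → R) : Submodule A R :=
  LinearMap.range (∑ j, (LinearMap.mulLeft A (y j)) ∘ₗ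
    (LinearMap.proj j : (Fin n → R) →ₗ[A] R))

lemma mem_Jof {n : ℕ} {y : Fin n → R} {x : R} :
    x ∈ (Jof y : Submodule A R) ↔ ∃ v : Fin n → R, ∑ j, y j * v j = x := by
  unfold Jof
  rw [LinearMap.mem_range]
  constructor
  · rintro ⟨v, hv⟩
    refine ⟨v, ?_⟩
    rw [← hv, LinearMap.sum_apply]
    rfl
  · rintro ⟨v, hv⟩
    refine ⟨v, ?_⟩
    rw [← hv, LinearMap.sum_apply]
    rfl

lemma exists_row [IsNoetherianRing A] (ht : Ideal A → ℕ) (m : ℕ) (hm : 1 ≤ m)
    (hlt : ∀ p q : Ideal A, p.IsPrime → q.IsPrime → q < p → ht q < ht p) (a : R)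
    (hgen : ∀ (J : Submodule A R) (p : Ideal A), p.IsPrime → GG J p m) :
    ∀ (i : ℕ) (y : Fin i → R), ∃ t : Fin i → A, Inv ht m (Jof (fun j => y j + t j • a)) a i := by
  intro i
  induction i with
  | zero =>
    intro y
    refine ⟨Fin.elim0, ?_⟩
    intro p hp
    refine Or.inr ⟨m, ?_, hgen _ p hp⟩
    calc m + 0 = m * 1 := by ring
      _ ≤ m * (1 + ht p) := Nat.mul_le_mul_left _ (by omega)
  | succ i ih =>
    intro y
    obtain ⟨t, hinv⟩ := ih (fun j => y j.castSucc)
    obtain ⟨u, hu⟩ := step ht m hm hlt _ a (y (Fin.last i)) i (hgen _) hinv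
    refine ⟨Fin.snoc (α := fun _ => A) t u, hu _ ?_ ?_⟩
    · intro x hx
      obtain ⟨v, hv⟩ := mem_Jof.1 hx
      refine mem_Jof.2 ⟨Fin.snoc (α := fun _ => R) v 0, ?_⟩
      rw [Fin.sum_univ_castSucc]
      simp only [Fin.snoc_castSucc, Fin.snoc_last, mul_zero, add_zero]
      exact hv
    · refine mem_Jof.2 ⟨Fin.snoc (α := fun _ => R) (fun _ => 0) 1, ?_⟩
      rw [Fin.sum_univ_castSucc]
      simp only [Fin.snoc_castSucc, Fin.snoc_last, mul_zero, mul_one, Finset.sum_const_zero,
        zero_add]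

lemma smul_mul_mem {n : ℕ} {y : Fin n → R} {a : R} {p : Ideal A} (h : ZZ (Jof y) a p) (r : R) :
    ZZ (Jof y) (a * r) p := by
  obtain ⟨f, hf, h⟩ := h
  refine ⟨f, hf, ?_⟩
  obtain ⟨j, hj, w, hw, hjw⟩ := mem_sup.1 h
  have h1 : f • (a * r) = j * r + w * r := by
    rw [← smul_mul_assoc, ← hjw, add_mul]
  rw [h1]
  refine add_mem (mem_sup_left ?_) (mem_sup_right ?_)
  · obtain ⟨v, hv⟩ := mem_Jof.1 hj
    refine mem_Jof.2 ⟨fun i => v i * r, ?_⟩
    rw [← hv, Finset.sum_mul]
    exact Finset.sum_congr rfl (fun i _ => (mul_assoc _ _ _).symm)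
  · refine Submodule.smul_induction_on (p := fun w => w * r ∈ p • (⊤ : Submodule A R)) hw ?_ ?_
    · intro c hc x _
      rw [smul_mul_assoc]
      exact smul_mem_smul hc mem_top
    · intro x y hx hy
      rw [add_mul]
      exact add_mem hx hy

/-- Bass' stable range condition (for right unimodular rows). -/
def SR (R : Type) [Ring R] (n : ℕ) : Prop :=
  ∀ (y : Fin n → R) (a : R), (∃ (b : Fin n → R) (c : R), ∑ i, y i * b i + a * c = 1) →
    ∃ t v : Fin n → R, ∑ i, (y i + a * t i) * v i = 1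

theorem bass (A R : Type) [CommRing A] [IsNoetherianRing A] [Ring R] [Algebra A R]
    [Module.Finite A R] (d : ℕ) (hd : ∀ p : Ideal A, p.IsPrime → p.height ≤ d) :
    ∃ n : ℕ, 1 ≤ n ∧ SR R n := by
  classical
  obtain ⟨s0, hs0⟩ := (Module.Finite.fg_top : (⊤ : Submodule A R).FG)
  set m : ℕ := s0.card + 1 with hm
  set ht : Ideal A → ℕ := fun p => p.height.toNat with hht
  have hle : ∀ p : Ideal A, p.IsPrime → ht p ≤ d := by
    intro p hp
    exact ENat.toNat_le_of_le_natCast (hd p hp)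
  have hne : ∀ p : Ideal A, p.IsPrime → p.height ≠ ⊤ := fun p hp =>
    ne_top_of_le_ne_top (ENat.natCast_ne_top d) (hd p hp)
  have hlt : ∀ p q : Ideal A, p.IsPrime → q.IsPrime → q < p → ht q < ht p := by
    intro p q hp hq hqp
    have h1 := Ideal.height_add_one_le_of_lt_of_isPrime hqp
    have h2 : ((ht q : ℕ) : ℕ∞) = q.height := ENat.natCast_toNat (hne q hq)
    have h3 : ((ht p : ℕ) : ℕ∞) = p.height := ENat.natCast_toNat (hne p hp)
    rw [← h2, ← h3] at h1
    have h4 : ht q + 1 ≤ ht p := by exact_mod_cast h1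
    omega
  have hgen : ∀ (J : Submodule A R) (p : Ideal A), p.IsPrime → GG J p m := by
    intro J p hp
    refine ⟨1, fun h => hp.ne_top ((Ideal.eq_top_iff_one _).2 h), s0, by omega, ?_⟩
    intro x
    rw [hs0, sup_top_eq]
    exact mem_top
  refine ⟨m * (1 + d), Nat.mul_pos (by omega) (by omega), ?_⟩
  rintro y a ⟨b, c, hbc⟩
  obtain ⟨t, hinv⟩ := exists_row ht m (by omega) hlt a hgen (m * (1 + d)) y
  set J : Submodule A R := Jof (fun j => y j + t j • a) with hJ
  have hza : ∀ p : Ideal A, p.IsPrime → ZZ J a p := by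
    intro p hp
    rcases hinv p hp with h | ⟨k, hk, hG⟩
    · exact h
    · have h1 : m * (1 + ht p) ≤ m * (1 + d) := Nat.mul_le_mul_left _ (by have := hle p hp; omega)
      have h2 : k = 0 := by omega
      rw [h2] at hG
      exact ZZ.of_GG_zero hG
  have hone : (1 : R) = ∑ i, (y i + t i • a) * b i + a * (c - ∑ i, t i • b i) := by
    rw [← hbc, mul_sub, Finset.mul_sum]
    have : ∑ i, (y i + t i • a) * b i = ∑ i, y i * b i + ∑ i, a * (t i • b i) := by
      rw [← Finset.sum_add_distrib]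
      refine Finset.sum_congr rfl (fun i _ => ?_)
      rw [add_mul, smul_mul_assoc, mul_smul_comm]
    rw [this]
    abel
  have hzx : ∀ p : Ideal A, p.IsPrime → ∀ x : R, ZZ J x p := by
    intro p hp x
    obtain ⟨f, hf, h⟩ := smul_mul_mem (hza p hp) ((c - ∑ i, t i • b i) * x)
    refine ⟨f, hf, ?_⟩
    have h1 : f • x = f • (∑ i, (y i + t i • a) * (b i * x)) +
        f • (a * ((c - ∑ i, t i • b i) * x)) := by
      rw [← smul_add]
      congr 1
      calc x = 1 * x := (one_mul x).symm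
        _ = _ := by
          rw [hone, add_mul, Finset.sum_mul, mul_assoc]
          congr 1
          exact Finset.sum_congr rfl (fun i _ => mul_assoc _ _ _)
    rw [h1]
    exact add_mem (mem_sup_left (J.smul_mem _ (mem_Jof.2 ⟨_, rfl⟩))) h
  have hQ : J.comap (Algebra.linearMap A R) = ⊤ := by
    by_contra hQ
    obtain ⟨p, hpm, hQp⟩ := Ideal.exists_le_maximal (J.comap (Algebra.linearMap A R)) hQ
    have hp := hpm.isPrime
    obtain ⟨f, hf, s, hs, h⟩ := lower (hzx p hp) m (hgen J p hp)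
    have hs0 : s = ∅ := Finset.card_eq_zero.1 (Nat.le_zero.1 hs)
    subst hs0
    apply hf
    apply hQp
    have h1 := h 1
    simp only [Finset.coe_empty, span_empty, sup_bot_eq] at h1
    rw [mem_comap, Algebra.linearMap_apply, Algebra.algebraMap_eq_smul_one]
    exact h1
  have h1 : (1 : R) ∈ J := by
    have : (1 : A) ∈ J.comap (Algebra.linearMap A R) := by rw [hQ]; exact mem_top
    rw [mem_comap, Algebra.linearMap_apply, map_one] at this
    exact this
  obtain ⟨v, hv⟩ := mem_Jof.1 h1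
  refine ⟨fun i => algebraMap A R (t i), v, ?_⟩
  rw [← hv]
  refine Finset.sum_congr rfl (fun i _ => ?_)
  rw [← Algebra.commutes, ← Algebra.smul_def]

end ring

end Vale.Agent.P246.H982
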